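import Vale.Agent.P032.H158.Rel

/-!
# P032: the label theorem for a centre with windows

`WinData.false_rel` : a reflexive transitive relation which contains all passages from a left limit
state to a right limit state at the same time, but never relates a generic state to its turn by 60
degrees, does not exist.
`WinData.false_lab` : a label which is constant at every time and changed by the turn.
`WinData.false_hyb` : a potential with a label: at every time the potential falls, or it stays and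
the label is constant; the turn keeps the potential and changes the label.
`false_of_lab`, `false_of_hyb` : the same over the relation `Step` of `H158/Rel`, with an additional
relation `K` (the rules which kill patterns) satisfied by the limit states.
-/

open Set Filter Topology Metric

noncomputable section

namespace Vale.Agent.P032.H429

open Vale.Agent.P032.Six Vale.Agent.P032.Sweep Vale.Agent.P032.S5.H767 Vale.Agent.P032.S5.H122

namespace WinData

variable {T : ℂ → Set (Fin 6)} {z : ℂ} {L R : Fin 6 → ℝ}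

/-- **The relation theorem.** -/
theorem false_rel {U : Fin 6 → Set ℂ} (h : Irr U T) (z : ℂ) (L R : Fin 6 → ℝ)
    {Q : St → St → Prop} (refl : ∀ s, Q s s) (trans : ∀ s s' s'', Q s s' → Q s' s'' → Q s s'')
    (hsh : ∀ t ∈ G T z L R, ¬ Q (st T z L R t) (shift (st T z L R t)))
    (step : ∀ u, ∀ s ∈ LS T z L R u, ∀ s' ∈ RS T z L R u, Q s s') : False := by
  obtain ⟨a, haG⟩ : ∃ a, a ∈ G T z L R := (G_dense h z L R).nonempty
  have hbG : a + 1 ∈ G T z L R := G_turn haG
  have hst := st_const hbG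
  obtain ⟨δ, hδ, hb⟩ := Metric.eventually_nhds_iff.1 hst
  obtain ⟨v, hvG, hv1, hv2⟩ : ∃ v ∈ G T z L R, max a (a + 1 - δ) < v ∧ v < a + 1 := by
    obtain ⟨v, h1, h2⟩ := (G_dense h z L R).exists_mem_open
      (isOpen_Ioo (a := max a (a + 1 - δ)) (b := a + 1))
      (nonempty_Ioo.2 (max_lt (by linarith) (by linarith)))
    exact ⟨v, h1, h2.1, h2.2⟩
  have hva : a < v := lt_of_le_of_lt (le_max_left _ _) hv1
  have hvδ : a + 1 - δ < v := lt_of_le_of_lt (le_max_right _ _) hv1
  have hsv : st T z L R v = st T z L R (a + 1) := by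
    refine hb ?_
    rw [Real.dist_eq, abs_of_neg (by linarith)]
    linarith
  have key := H987.transport (ι := Unit) (M := fun _ => M L R) (a := a) (b := a + 1)
    (fun _ => M_finite L R a (a + 1)) (G_dense h z L R) (st := st T z L R)
    (fun u hu _ => (st_const hu).mono fun _ hv _ => hv)
    (I := fun _ s => Q (st T z L R a) s) ?_ ?_ v ⟨hva, hv2⟩ hvG
  · have h2 : Q (st T z L R a) (st T z L R v) := key
    rw [hsv, st_turn] at h2
    exact hsh a haG h2
  · have h1 : ∀ᶠ v in 𝓝[>] a, st T z L R v = st T z L R a :=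
      mem_nhdsWithin_of_mem_nhds (st_const haG)
    filter_upwards [h1] with v hv _
    rw [hv]
    exact refl _
  · intro u hu
    filter_upwards [ev_LS T z L R u] with v hv hvG
    filter_upwards [ev_RS T z L R u] with v' hv' hvG' n hI
    exact trans _ _ _ hI (step u _ (hv hvG) _ (hv' hvG'))

/-- **The label theorem.** -/
theorem false_lab {U : Fin 6 → Set ℂ} (h : Irr U T) (z : ℂ) (L R : Fin 6 → ℝ) {α : Type*}
    {F : St → α} (hsh : ∀ t ∈ G T z L R, F (shift (st T z L R t)) ≠ F (st T z L R t))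
    (step : ∀ u, ∀ s ∈ LS T z L R u, ∀ s' ∈ RS T z L R u, F s' = F s) : False :=
  false_rel h z L R (Q := fun s s' => F s' = F s) (fun _ => rfl)
    (fun _ _ _ h1 h2 => h2.trans h1) hsh step

/-- **Potential with label.** -/
theorem false_hyb {U : Fin 6 → Set ℂ} (h : Irr U T) (z : ℂ) (L R : Fin 6 → ℝ) {α : Type*}
    {φ : St → ℕ} {F : St → α}
    (hφ : ∀ t ∈ G T z L R, φ (shift (st T z L R t)) = φ (st T z L R t))
    (hsh : ∀ t ∈ G T z L R, F (shift (st T z L R t)) ≠ F (st T z L R t))
    (step : ∀ u, ∀ s ∈ LS T z L R u, ∀ s' ∈ RS T z L R u,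
      φ s' < φ s ∨ (φ s' = φ s ∧ F s' = F s)) : False := by
  refine false_rel h z L R (Q := fun s s' => φ s' < φ s ∨ (φ s' = φ s ∧ F s' = F s))
    (fun _ => Or.inr ⟨rfl, rfl⟩) ?_ ?_ step
  · rintro s s' s'' (h1 | ⟨h1, h2⟩) (h3 | ⟨h3, h4⟩)
    · exact Or.inl (h3.trans h1)
    · exact Or.inl (h3 ▸ h1)
    · exact Or.inl (h1 ▸ h3)
    · exact Or.inr ⟨h3.trans h1, h4.trans h2⟩
  · rintro t ht (h1 | ⟨-, h2⟩)
    · rw [hφ t ht] at h1
      exact lt_irrefl _ h1
    · exact hsh t ht h2

end WinData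

end Vale.Agent.P032.H429

namespace Vale.Agent.P032.H453

open Vale.Agent.P032.Six Vale.Agent.P032.Sweep Vale.Agent.P032.S5.H767 Vale.Agent.P032.S5.H122
  Vale.Agent.P032.H429 Vale.Agent.P032.H158

variable {U : Fin 6 → Set ℂ} {T : ℂ → Set (Fin 6)} {z : ℂ} {L R : Fin 6 → ℝ}

/-- every ray is strictly inside a window -/
def Cov (s : St) : Prop :=
  ∀ m : ZMod 6, ∃ i : Fin 6, ∃ d : Fin 3, d.val < (s.2 i).2 ∧ (s.2 i).1 + (d.val : ZMod 6) + 1 = m

instance (s : St) : Decidable (Cov s) := by unfold Cov; infer_instance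

/-- the windows of a generic time cover the rays -/
theorem cov_st (w : WinData T z L R) {v : ℝ} (hv : v ∉ WinData.M L R) :
    Cov (WinData.st T z L R v) := by
  intro m
  obtain ⟨k, hk⟩ := ZMod.intCast_surjective m
  obtain ⟨i, n, h1, h2⟩ := w.cover (v + 3 / 2 + k)
  have h1' : L i + 6 * n < v + 3 / 2 + k := by
    refine lt_of_le_of_ne h1 fun he => hv ⟨i, k - 6 * n, Or.inl ?_⟩
    push_cast
    linarith
  have h3 : sc v (L i) + 6 * n < k := by
    rw [← sc_int, sc_lt]
    linarith
  have h4 : k ≤ sc v (R i) + 6 * n := by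
    rw [← sc_int, le_sc]
    linarith
  have h5 : (sc v (R i) - sc v (L i)).toNat ≤ 3 := w.len v i
  have h6 : (0 : ℤ) ≤ k - (sc v (L i) + 6 * n) - 1 := by omega
  obtain ⟨d, hd⟩ := Int.eq_ofNat_of_zero_le h6
  have h7 : d < (sc v (R i) - sc v (L i)).toNat := by omega
  refine ⟨i, ⟨d, by omega⟩, h7, ?_⟩
  show ((sc v (L i) : ZMod 6)) + (d : ZMod 6) + 1 = m
  rw [← hk]
  have e : (k : ℤ) = sc v (L i) + 6 * n + d + 1 := by omega
  rw [e]
  push_cast
  have : (6 : ZMod 6) = 0 := by decide
  rw [this]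
  ring

theorem LS_cov (w : WinData T z L R) {u : ℝ} {s : St} (hs : s ∈ LS T z L R u) : Cov s := by
  have hs' : ∃ᶠ v in 𝓝[<] u, v ∈ WinData.G T z L R ∧ WinData.st T z L R v = s := hs
  obtain ⟨v, hv, rfl⟩ := hs'.exists
  exact cov_st w hv.2

theorem RS_cov (w : WinData T z L R) {u : ℝ} {s : St} (hs : s ∈ RS T z L R u) : Cov s := by
  have hs' : ∃ᶠ v in 𝓝[>] u, v ∈ WinData.G T z L R ∧ WinData.st T z L R v = s := hs
  obtain ⟨v, hv, rfl⟩ := hs'.exists
  exact cov_st w hv.2

/-- **The label theorem over `Step`.**  `K` : further facts about the limit states at one time. -/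
theorem false_of_lab (h : Irr U T) (w : WinData T z L R) {Sd : Fin 6 → Prop}
    (hD : ∀ i, Sd i → L i ∈ closure (Dr U z i) ∧ R i ∈ closure (Dr U z i)) {K : St → St → Prop}
    (hK : ∀ u, ∀ s ∈ LS T z L R u, ∀ s' ∈ RS T z L R u, K s s') {α : Type*} {F : St → α}
    (hsh : ∀ s, OkSt s → Cov s → F (H429.shift s) ≠ F s)
    (step : ∀ s s', Step Sd s s' → Cov s → Cov s' → K s s' → F s' = F s) : False :=
  WinData.false_lab h z L R (F := F) (fun _ ht => hsh _ (ok_st h w ht) (cov_st w ht.2))
    fun u s hs s' hs' => step s s' (step_all h w hD hs hs').1 (LS_cov w hs) (RS_cov w hs')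
      (hK u s hs s' hs')

/-- **Potential with label over `Step`.** -/
theorem false_of_hyb (h : Irr U T) (w : WinData T z L R) {Sd : Fin 6 → Prop}
    (hD : ∀ i, Sd i → L i ∈ closure (Dr U z i) ∧ R i ∈ closure (Dr U z i)) {K : St → St → Prop}
    (hK : ∀ u, ∀ s ∈ LS T z L R u, ∀ s' ∈ RS T z L R u, K s s') {α : Type*} {φ : St → ℕ}
    {F : St → α} (hφ : ∀ s, OkSt s → Cov s → φ (H429.shift s) = φ s)
    (hsh : ∀ s, OkSt s → Cov s → F (H429.shift s) ≠ F s)
    (step : ∀ s s', Step Sd s s' → Cov s → Cov s' → K s s' →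
      φ s' < φ s ∨ (φ s' = φ s ∧ F s' = F s)) : False :=
  WinData.false_hyb h z L R (φ := φ) (F := F) (fun _ ht => hφ _ (ok_st h w ht) (cov_st w ht.2))
    (fun _ ht => hsh _ (ok_st h w ht) (cov_st w ht.2))
    fun u s hs s' hs' => step s s' (step_all h w hD hs hs').1 (LS_cov w hs) (RS_cov w hs')
      (hK u s hs s' hs')

/-- **The relation theorem over `Step`.** -/
theorem false_of_rel (h : Irr U T) (w : WinData T z L R) {Sd : Fin 6 → Prop}
    (hD : ∀ i, Sd i → L i ∈ closure (Dr U z i) ∧ R i ∈ closure (Dr U z i)) {K : St → St → Prop}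
    (hK : ∀ u, ∀ s ∈ LS T z L R u, ∀ s' ∈ RS T z L R u, K s s') {Q : St → St → Prop}
    (refl : ∀ s, Q s s) (trans : ∀ s s' s'', Q s s' → Q s' s'' → Q s s'')
    (hsh : ∀ s, OkSt s → Cov s → ¬ Q s (H429.shift s))
    (step : ∀ s s', Step Sd s s' → Cov s → Cov s' → K s s' → Q s s') : False :=
  WinData.false_rel h z L R refl trans (fun _ ht => hsh _ (ok_st h w ht) (cov_st w ht.2))
    fun u s hs s' hs' => step s s' (step_all h w hD hs hs').1 (LS_cov w hs) (RS_cov w hs')
      (hK u s hs s' hs')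

end Vale.Agent.P032.H453
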