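import Vale.Agent.P032.H838.GStat
import Vale.Agent.P032.H623.NsC

/-!
# P032: the edge search over canonical states

`edg g V E` : the search of all steps from the state with the column word `g` and the windows `V`
whose pair of columns has no swap and no six conveyor; `edgeC_of` : its soundness.
-/

noncomputable section

namespace Vale.Agent.P032.H453.Ed

open Vale.Agent.P032.Six Vale.Agent.P032.H429 Vale.Agent.P032.H158 Vale.Agent.P032.H728
  Vale.Agent.P032.H728.G Vale.Agent.P032.H838.GTr Vale.Agent.P032.H623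
open Vale.Agent.P032.H532 (force force_eq allBelow allBelow_spec band band_eq)

/-- a bit -/
def bt (x b : ℕ) : Bool := Nat.beq (Nat.land (Nat.shiftRight x b) 1) 1

/-- not zero -/
def nz (x : ℕ) : Bool := Nat.ble 1 x

/-- negation -/
abbrev bnt (a : Bool) : Bool := Bool.rec true false a

/-- moves of a window to the front of a slot -/
def imT : ℕ := 0x4000005c00005fc8001bb00004000005cc0005fb8001b000004c00005fc0005bb80014000005c00005fc0001bb80004000005c00005fc0001bb80004000005c00005fc0001bb8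

/-- moves of a window to the back of a slot -/
def omT : ℕ := 0x4000005c00005fc0001bb80004000005c00005fc0001bb80004000005c00005fc0001bb80004000005c00005fc8001bb00004000005cc0005fb8001b000004c00005fc0005bb8001

/-- true moves -/
def vmT : ℕ := 0xdffbdffbdffbdffbdffbdffb

/-- rays covered after a move -/
def cvT : ℕ := 0x8c30078418c3800841000800c61023c20c61400c20000400e30031610e3020061000020071803830871810030800010038c01c18438c0801840000801c600e0c21c60400c2000040

def imk (c j : ℕ) : ℕ := Nat.land (Nat.shiftRight imT (Nat.add (Nat.mul 24 c) (Nat.mul 4 j))) 15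

def omk (c j : ℕ) : ℕ := Nat.land (Nat.shiftRight omT (Nat.add (Nat.mul 24 c) (Nat.mul 4 j))) 15

def vmk (c : ℕ) : ℕ := Nat.land (Nat.shiftRight vmT (Nat.mul 4 c)) 15

def cvk (c t : ℕ) : ℕ := Nat.land (Nat.shiftRight cvT (Nat.add (Nat.mul 24 c) (Nat.mul 6 t))) 63

/-- the mask of a letter -/
def mk (p : Fin 6 × Fin 6) : ℕ := Nat.lor (Nat.shiftLeft 1 p.1.val) (Nat.shiftLeft 1 p.2.val)

/-- digit base 8 -/
def d8 (g p : ℕ) : ℕ := Nat.land (Nat.shiftRight g (Nat.mul 3 p)) 7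

/-- digit base 32 -/
def d32 (V p : ℕ) : ℕ := Nat.land (Nat.shiftRight V (Nat.mul 5 p)) 31

/-- the mask of the letter in the slot `j` -/
def gmk (g j : ℕ) : ℕ := Nat.lor (Nat.shiftLeft 1 (d8 g (Nat.mul 2 j)))
  (Nat.shiftLeft 1 (d8 g (Nat.add (Nat.mul 2 j) 1)))

/-- the moves of the colour `a` restricted to `k` -/
def rst (M a k : ℕ) : ℕ := Nat.land M (Nat.lor (Nat.shiftLeft k (Nat.mul 4 a))
  (Nat.xor 16777215 (Nat.shiftLeft 15 (Nat.mul 4 a))))

/-- the moves of the colour `a` -/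
def fld (M a : ℕ) : ℕ := Nat.land (Nat.shiftRight M (Nat.mul 4 a)) 15

/-- the choice of the letter in the slot `j` -/
def stp (g V j : ℕ) (k : ℕ → ℕ → ℕ → Bool) (M w P0 : ℕ) : Bool :=
  force (gmk g j) fun G0 => force (gmk g (Nat.add j 1)) fun G1 =>
  allBelow 6 fun p =>
    bimp (bnt (bt P0 p)) (force (rst M p (imk (d32 V p) j)) fun M1 =>
      bimp (nz (fld M1 p)) (allBelow 6 fun q =>
        bimp (bnt (bt (Nat.lor P0 (Nat.shiftLeft 1 p)) q))
          (force (rst M1 q (omk (d32 V q) j)) fun M2 =>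
            bimp (nz (fld M2 q))
              (force (Nat.lor (Nat.shiftLeft 1 p) (Nat.shiftLeft 1 q)) fun P =>
                bimp (bnt (band (nz (Nat.land G0 P0)) (nz (Nat.land P G1))))
                  (force (Nat.add p (Nat.mul 8 (Nat.add q (Nat.mul 8 w)))) fun w' =>
                    k M2 w' P)))))

/-- the search of the moves -/
def msr (V M : ℕ) (f : ℕ → Bool) (k : ℕ) : ℕ → ℕ → Bool :=
  Nat.rec (motive := fun _ => ℕ → ℕ → Bool)
    (fun μ u => bimp (Nat.beq u 63) (f μ))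
    (fun i ih μ u => allBelow 4 fun t =>
      bimp (bt M (Nat.add (Nat.mul 4 i) t))
        (force (Nat.add t (Nat.mul 4 μ)) fun μ' =>
          force (Nat.lor u (cvk (d32 V i) t)) fun u' => ih μ' u')) k

/-- the crossings are in the list -/
def inL (μ : ℕ) (l : List (ℕ × ℕ)) : Bool :=
  List.rec (motive := fun _ => Bool) false
    (fun x _ ih => Bool.rec (motive := fun _ => Bool) ih true (Nat.beq x.1 μ)) l

/-- the step is in the groups -/
def inE (w μ : ℕ) (E : List Grp) : Bool :=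
  List.rec (motive := fun _ => Bool) false
    (fun e _ ih => Bool.rec (motive := fun _ => Bool) ih true (band (Nat.beq e.q w) (inL μ e.l))) E

/-- all six -/
def al6 (f : ℕ → Bool) : Bool := allBelow 6 f

/-- the next slot -/
def nx (j : ℕ) : ℕ := Bool.rec (Nat.add j 1) 0 (Nat.beq j 5)

/-- the end of a branch -/
def leaf (g V : ℕ) (E : List Grp) (M w P : ℕ) : Bool :=
  bimp (bnt (nz (Nat.land P (gmk w 5))))
    (bimp (bnt (band (nz (Nat.land (gmk g 5) P)) (nz (Nat.land (gmk w 5) (gmk g 0)))))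
      (bimp (bnt (al6 fun j => nz (Nat.land (gmk g j) (gmk w (nx j)))))
        (bimp (bnt (al6 fun j => nz (Nat.land (gmk w j) (gmk g (nx j)))))
          (msr V M (fun μ => Bool.rec (motive := fun _ => Bool) (inE w μ E) true
            (band (Nat.beq w g) (Nat.beq μ 0))) 6 0 0))))

/-- the true moves of all colours -/
def m0 (V : ℕ) : ℕ :=
  Nat.lor (Nat.shiftLeft (vmk (d32 V 0)) 0) (Nat.lor (Nat.shiftLeft (vmk (d32 V 1)) 4)
    (Nat.lor (Nat.shiftLeft (vmk (d32 V 2)) 8) (Nat.lor (Nat.shiftLeft (vmk (d32 V 3)) 12)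
      (Nat.lor (Nat.shiftLeft (vmk (d32 V 4)) 16) (Nat.shiftLeft (vmk (d32 V 5)) 20)))))

/-- **the edge search** -/
def edg (g V : ℕ) (E : List Grp) : Bool :=
  force (m0 V) fun M =>
    stp g V 5 (stp g V 4 (stp g V 3 (stp g V 2 (stp g V 1 (stp g V 0 (leaf g V E)))))) M 0 0

/-! ### bits -/

theorem bt_eq (x b : ℕ) : bt x b = x.testBit b := by
  unfold bt
  rw [Nat.testBit]
  have h : Nat.land (Nat.shiftRight x b) 1 = 1 &&& (x >>> b) := Nat.and_comm _ _
  rw [h]
  have h2 : 1 &&& (x >>> b) = 0 ∨ 1 &&& (x >>> b) = 1 := by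
    rw [Nat.one_and_eq_mod_two]; omega
  rcases h2 with h2 | h2 <;> rw [h2] <;> rfl

theorem nz_iff (x : ℕ) : nz x = true ↔ x ≠ 0 := by
  unfold nz
  rw [Nat.ble_eq]
  omega

theorem bnt_eq {a : Bool} : bnt a = true ↔ a = false := by
  cases a <;> simp [bnt]

theorem d8_eq (g p : ℕ) : d8 g p = G.dg 8 g p := by
  unfold d8 G.dg
  show (g >>> (3 * p)) &&& 7 = g / 8 ^ p % 8
  rw [show (7 : ℕ) = 2 ^ 3 - 1 by norm_num, Nat.and_two_pow_sub_one_eq_mod,
    Nat.shiftRight_eq_div_pow, pow_mul]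
  norm_num

theorem d32_eq (V p : ℕ) : d32 V p = G.dg 32 V p := by
  unfold d32 G.dg
  show (V >>> (5 * p)) &&& 31 = V / 32 ^ p % 32
  rw [show (31 : ℕ) = 2 ^ 5 - 1 by norm_num, Nat.and_two_pow_sub_one_eq_mod,
    Nat.shiftRight_eq_div_pow, pow_mul]
  norm_num

theorem imk_bit (a : ZMod 6) (n : Fin 4) (c1 c2 : Bool) (j : Fin 6)
    (h1 : c2 = true → c1 = true ∨ 1 ≤ n.val) (h2 : (mvw (a, n.val) (c1, c2)).2 ≤ 3)
    (h3 : inn (mvw (a, n.val) (c1, c2)) (j.val : ZMod 6)) :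
    (imk (4 * a.val + n.val) j.val).testBit (cdg (c1, c2)) = true := by
  revert a n c1 c2 j
  unfold imk imT cdg mvw
  decide +kernel

theorem omk_bit (a : ZMod 6) (n : Fin 4) (c1 c2 : Bool) (j : Fin 6)
    (h1 : c2 = true → c1 = true ∨ 1 ≤ n.val) (h2 : (mvw (a, n.val) (c1, c2)).2 ≤ 3)
    (h3 : out (mvw (a, n.val) (c1, c2)) (j.val : ZMod 6)) :
    (omk (4 * a.val + n.val) j.val).testBit (cdg (c1, c2)) = true := by
  revert a n c1 c2 j
  unfold omk omT cdg mvw
  decide +kernel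

theorem vmk_bit (a : ZMod 6) (n : Fin 4) (c1 c2 : Bool)
    (h1 : c2 = true → c1 = true ∨ 1 ≤ n.val) (h2 : (mvw (a, n.val) (c1, c2)).2 ≤ 3) :
    (vmk (4 * a.val + n.val)).testBit (cdg (c1, c2)) = true := by
  revert a n c1 c2
  unfold vmk vmT cdg mvw
  decide +kernel

theorem cvk_bit (a : ZMod 6) (n : Fin 4) (c1 c2 : Bool) (k : Fin 6)
    (h1 : c2 = true → c1 = true ∨ 1 ≤ n.val) (h2 : (mvw (a, n.val) (c1, c2)).2 ≤ 3)
    (h3 : ((k.val : ZMod 6) - 1 - (mvw (a, n.val) (c1, c2)).1).val < (mvw (a, n.val) (c1, c2)).2) :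
    (cvk (4 * a.val + n.val) (cdg (c1, c2))).testBit k.val = true := by
  revert a n c1 c2 k
  unfold cvk cvT cdg mvw
  decide +kernel

theorem cvk_lt (c t : ℕ) : cvk c t < 64 := Nat.and_lt_two_pow (n := 6) _ (by norm_num)

theorem mk_bit (p : Fin 6 × Fin 6) (b : Fin 6) (h1 : b ≠ p.1) (h2 : b ≠ p.2) :
    bt (mk p) b.val = false := by
  revert p b
  decide +kernel

theorem mk_land (p q : Fin 6 × Fin 6) : nz (Nat.land (mk p) (mk q)) = true ↔ mt p q := by
  revert p q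
  decide +kernel

theorem gmk_eq (g : Cl) (j : Fin 6) : gmk (cw g) j.val = mk (g j) := by
  have hj := j.isLt
  show Nat.lor (Nat.shiftLeft 1 (d8 (cw g) (2 * j.val)))
    (Nat.shiftLeft 1 (d8 (cw g) (2 * j.val + 1))) = _
  rw [d8_eq, d8_eq, dg_cw g (by omega), dg_cw g (by omega), ls_even, ls_odd]
  rfl

/-! ### the masks of the moves -/

/-- the true move of every colour is allowed -/
def Inv (M : ℕ) (m : Cn) : Prop := ∀ i : Fin 6, M.testBit (4 * i.val + cdg (m i)) = true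

theorem inv_rst {M : ℕ} {m : Cn} (h : Inv M m) (a : Fin 6) {k : ℕ}
    (hk : k.testBit (cdg (m a)) = true) : Inv (rst M a.val k) m := by
  intro i
  have key : ∀ (a i : Fin 6) (t : Fin 4), i ≠ a →
      (Nat.xor 16777215 (Nat.shiftLeft 15 (Nat.mul 4 a.val))).testBit (4 * i.val + t.val) =
        true := by decide +kernel
  show (M &&& ((k <<< (4 * a.val)) |||
    (Nat.xor 16777215 (Nat.shiftLeft 15 (Nat.mul 4 a.val))))).testBit _ = true
  rw [Nat.testBit_and, Nat.testBit_or, h i, Bool.true_and]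
  by_cases hi : i = a
  · subst hi
    rw [Nat.testBit_shiftLeft]
    simp [hk]
  · rw [key a i ⟨cdg (m i), cdg_lt _⟩ hi, Bool.or_true]

theorem fld_nz {M : ℕ} {m : Cn} (h : Inv M m) (a : Fin 6) : nz (fld M a.val) = true := by
  rw [nz_iff]
  intro h0
  have h1 : (fld M a.val).testBit (cdg (m a)) = true := by
    show ((M >>> (4 * a.val)) &&& 15).testBit (cdg (m a)) = true
    have h2 : ∀ t : Fin 4, (15 : ℕ).testBit t.val = true := by decide
    rw [Nat.testBit_and, Nat.testBit_shiftRight, h a, h2 ⟨cdg (m a), cdg_lt _⟩]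
    rfl
  rw [h0] at h1
  simp at h1

theorem band_false {a b : Bool} (h : ¬ (a = true ∧ b = true)) : band a b = false := by
  by_contra hh
  exact h (band_eq.1 (by simpa using hh))

variable {s : St} {m : Cn} {g' : Cl} {gw V : ℕ}

theorem stp_spec {k : ℕ → ℕ → ℕ → Bool} {M w P0 : ℕ} (j : Fin 6)
    (hV : ∀ i : Fin 6, d32 V i.val = H728.wc (s.2 i)) (hok : OkSt s) (hwok : wok s.2 m)
    (hok' : OkSt (g', mvW s.2 m)) (hM : Inv M m)
    (hp : bt P0 (g' j).1.val = false) (hq : bt P0 (g' j).2.val = false)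
    (hs : ¬ (nz (Nat.land (gmk gw j.val) P0) = true ∧
      nz (Nat.land (mk (g' j)) (gmk gw (j.val + 1))) = true))
    (h : stp gw V j.val k M w P0 = true) :
    ∃ M2, Inv M2 m ∧ k M2 ((g' j).1.val + 8 * ((g' j).2.val + 8 * w)) (mk (g' j)) = true := by
  unfold stp at h
  rw [force_eq, force_eq] at h
  have h1 := bimp_eq.1 (allBelow_spec 6 h (g' j).1.val (g' j).1.isLt) (bnt_eq.2 hp)
  rw [force_eq] at h1
  obtain ⟨a1, a2, a3, -⟩ := hok'.2 j
  have i1 : Inv (rst M (g' j).1.val (imk (d32 V (g' j).1.val) j.val)) m := by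
    refine inv_rst hM (g' j).1 ?_
    rw [hV]
    exact imk_bit (s.2 (g' j).1).1 ⟨(s.2 (g' j).1).2, by have := hok.1 (g' j).1; omega⟩
      (m (g' j).1).1 (m (g' j).1).2 j (hwok (g' j).1) (hok'.1 (g' j).1) a2
  have h2 := bimp_eq.1 h1 (fld_nz i1 _)
  have hq' : bt (Nat.lor P0 (Nat.shiftLeft 1 (g' j).1.val)) (g' j).2.val = false := by
    have key : ∀ p q : Fin 6, p ≠ q → (Nat.shiftLeft 1 p.val).testBit q.val = false := by
      decide +kernel
    rw [bt_eq] at hq ⊢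
    show (P0 ||| Nat.shiftLeft 1 (g' j).1.val).testBit _ = false
    rw [Nat.testBit_or, hq, key _ _ a1]
    rfl
  have h3 := bimp_eq.1 (allBelow_spec 6 h2 (g' j).2.val (g' j).2.isLt) (bnt_eq.2 hq')
  rw [force_eq] at h3
  have i2 : Inv (rst (rst M (g' j).1.val (imk (d32 V (g' j).1.val) j.val)) (g' j).2.val
      (omk (d32 V (g' j).2.val) j.val)) m := by
    refine inv_rst i1 (g' j).2 ?_
    rw [hV]
    exact omk_bit (s.2 (g' j).2).1 ⟨(s.2 (g' j).2).2, by have := hok.1 (g' j).2; omega⟩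
      (m (g' j).2).1 (m (g' j).2).2 j (hwok (g' j).2) (hok'.1 (g' j).2) a3
  have h4 := bimp_eq.1 h3 (fld_nz i2 _)
  rw [force_eq] at h4
  have h5 := bimp_eq.1 h4 (bnt_eq.2 (band_false hs))
  rw [force_eq] at h5
  exact ⟨_, i2, h5⟩

/-! ### the search of the moves -/

def accM (D : ℕ → ℕ) : ℕ → ℕ → ℕ
  | 0, μ => μ
  | i + 1, μ => accM D i (D i + 4 * μ)

def accC (c : ℕ → ℕ) : ℕ → ℕ
  | 0 => 0
  | i + 1 => c i ||| accC c i

theorem msr_spec {M : ℕ} {f : ℕ → Bool} {D : ℕ → ℕ} (hD : ∀ i, D i < 4)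
    (hM : ∀ i < 6, M.testBit (4 * i + D i) = true) :
    ∀ k ≤ 6, ∀ μ u, msr V M f k μ u = true →
      u ||| accC (fun i => cvk (d32 V i) (D i)) k = 63 → f (accM D k μ) = true := by
  intro k
  induction k with
  | zero =>
    intro _ μ u h hc
    have h1 : bimp (Nat.beq u 63) (f μ) = true := h
    have h2 : u = 63 := by
      have : u ||| 0 = 63 := hc
      rwa [Nat.or_zero] at this
    exact bimp_eq.1 h1 (by rw [h2]; rfl)
  | succ i ih =>
    intro hk μ u h hc
    have h1 : allBelow 4 (fun t =>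
      bimp (bt M (Nat.add (Nat.mul 4 i) t))
        (force (Nat.add t (Nat.mul 4 μ)) fun μ' =>
          force (Nat.lor u (cvk (d32 V i) t)) fun u' => msr V M f i μ' u')) = true := h
    have h2 := bimp_eq.1 (allBelow_spec 4 h1 (D i) (hD i)) (by
      rw [bt_eq]; exact hM i (by omega))
    rw [force_eq, force_eq] at h2
    exact ih (by omega) (D i + 4 * μ) (u ||| cvk (d32 V i) (D i)) h2 (by
      rw [Nat.or_assoc]; exact hc)

theorem inL_spec {μ : ℕ} {l : List (ℕ × ℕ)} (h : inL μ l = true) : ∃ x ∈ l, x.1 = μ := by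
  induction l with
  | nil => cases h
  | cons x l ih =>
    cases hb : Nat.beq x.1 μ with
    | true => exact ⟨x, List.mem_cons_self, Nat.eq_of_beq_eq_true hb⟩
    | false =>
      have h' : Bool.rec (motive := fun _ => Bool) (inL μ l) true (Nat.beq x.1 μ) = true := h
      rw [hb] at h'
      obtain ⟨y, hy, e⟩ := ih h'
      exact ⟨y, List.mem_cons_of_mem _ hy, e⟩

theorem inE_spec {w μ : ℕ} {E : List Grp} (h : inE w μ E = true) :
    ∃ e ∈ E, e.q = w ∧ ∃ x ∈ e.l, x.1 = μ := by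
  induction E with
  | nil => cases h
  | cons e E ih =>
    cases hb : band (Nat.beq e.q w) (inL μ e.l) with
    | true =>
      obtain ⟨h1, h2⟩ := band_eq.1 hb
      exact ⟨e, List.mem_cons_self, Nat.eq_of_beq_eq_true h1, inL_spec h2⟩
    | false =>
      have h' : Bool.rec (motive := fun _ => Bool) (inE w μ E) true
        (band (Nat.beq e.q w) (inL μ e.l)) = true := h
      rw [hb] at h'
      obtain ⟨y, hy, e'⟩ := ih h'
      exact ⟨y, List.mem_cons_of_mem _ hy, e'⟩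

theorem accC_63 (hV : ∀ i : Fin 6, d32 V i.val = H728.wc (s.2 i)) (hok : OkSt s)
    (hwok : wok s.2 m) (hok' : OkSt (g', mvW s.2 m)) (hcov : Cov (mvW s.2 m)) :
    0 ||| accC (fun i => cvk (d32 V i) (cdg (m (Fin.ofNat 6 i)))) 6 = 63 := by
  rw [Nat.zero_or]
  obtain ⟨v, hv⟩ : ∃ v : ℕ → ℕ, v = fun i => cvk (d32 V i) (cdg (m (Fin.ofNat 6 i))) := ⟨_, rfl⟩
  rw [← hv]
  have hlt0 : ∀ i, v i < 64 := fun i => by rw [hv]; exact cvk_lt _ _
  have e : accC v 6 = v 5 ||| (v 4 ||| (v 3 ||| (v 2 ||| (v 1 ||| (v 0 ||| 0))))) := rfl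
  have hb : ∀ i : Fin 6, ∀ b, (v i.val).testBit b = true → (accC v 6).testBit b = true := by
    intro i b hb
    rw [e]
    simp only [Nat.testBit_or]
    fin_cases i <;> simp_all
  have hlt : accC v 6 < 2 ^ 6 := by
    rw [e]
    exact Nat.or_lt_two_pow (hlt0 _) (Nat.or_lt_two_pow (hlt0 _) (Nat.or_lt_two_pow
      (hlt0 _) (Nat.or_lt_two_pow (hlt0 _) (Nat.or_lt_two_pow (hlt0 _)
        (Nat.or_lt_two_pow (hlt0 _) (by norm_num))))))
  refine Nat.eq_of_testBit_eq fun b => ?_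
  have e63 : (63 : ℕ) = 2 ^ 6 - 1 := by norm_num
  rw [e63, Nat.testBit_two_pow_sub_one]
  by_cases hb6 : b < 6
  · obtain ⟨i, hi⟩ := hcov ((b : ℕ) : ZMod 6)
    have g1 := cvk_bit (s.2 i).1 ⟨(s.2 i).2, by have := hok.1 i; omega⟩ (m i).1 (m i).2 ⟨b, hb6⟩
      (hwok i) (hok'.1 i) hi
    rw [hb i b (by
      rw [hv]
      show (cvk (d32 V i.val) (cdg (m (Fin.ofNat 6 i.val)))).testBit b = true
      rw [ofNat_val, hV]
      exact g1)]
    simpa using hb6
  · rw [Nat.testBit_lt_two_pow (lt_of_lt_of_le hlt (Nat.pow_le_pow_right (by norm_num)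
      (by omega)))]
    simpa using hb6

/-! ### the theorem -/

theorem nx_val (j : Fin 6) : nx j.val = (j + 1).val := by
  revert j
  decide

theorem conv_false {f : ℕ → Bool} {Q : Fin 6 → Prop} (hf : ∀ j : Fin 6, f j.val = true → Q j)
    (h : ¬ ∀ j, Q j) : al6 f = false := by
  by_contra hh
  have hh' : al6 f = true := by simpa using hh
  exact h fun j => hf j (allBelow_spec 6 hh' j.val j.isLt)

theorem leaf_spec {g : Cl} {E : List Grp} {M : ℕ}
    (hV : ∀ i : Fin 6, d32 V i.val = H728.wc (s.2 i)) (hok : OkSt s) (hwok : wok s.2 m)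
    (hok' : OkSt (g', mvW s.2 m)) (hcov : Cov (mvW s.2 m)) (hM : Inv M m)
    (hn : NsC g g') (h : leaf (cw g) V E M (cw g') (mk (g' 0)) = true) :
    (g' = g ∧ m = fun _ => (false, false)) ∨
      ∃ e ∈ E, e.q = cw g' ∧ ∃ x ∈ e.l, x.1 = cc m := by
  obtain ⟨n1, n2, n3⟩ := hn
  have g5 : gmk (cw g') 5 = mk (g' 5) := gmk_eq g' 5
  have g5' : gmk (cw g) 5 = mk (g 5) := gmk_eq g 5
  have g0' : gmk (cw g) 0 = mk (g 0) := gmk_eq g 0
  unfold leaf at h
  rw [g5, g5', g0'] at h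
  have c1 : nz (Nat.land (mk (g' 0)) (mk (g' 5))) = false := by
    by_contra hh
    have hh' := (mk_land _ _).1 (by simpa using hh)
    obtain ⟨-, -, -, b1, b2, b3, b4⟩ := hok'.2 5
    have e6 : (5 : Fin 6) + 1 = 0 := by decide
    rw [e6] at b1 b2 b3 b4
    rcases hh' with q | q | q | q
    · exact b1 q.symm
    · exact b3 q.symm
    · exact b2 q.symm
    · exact b4 q.symm
  have h1 := bimp_eq.1 h (bnt_eq.2 c1)
  have h2 := bimp_eq.1 h1 (bnt_eq.2 (band_false fun ⟨x1, x2⟩ =>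
    n1 5 ⟨(mk_land _ _).1 x1, (mk_land _ _).1 x2⟩))
  have h3 := bimp_eq.1 h2 (bnt_eq.2 (conv_false (Q := fun j => mt (g j) (g' (j + 1)))
    (fun j hj => by
      have hj' : nz (Nat.land (gmk (cw g) j.val) (gmk (cw g') (nx j.val))) = true := hj
      rw [nx_val, gmk_eq, gmk_eq] at hj'
      exact (mk_land _ _).1 hj') n2))
  have h4 := bimp_eq.1 h3 (bnt_eq.2 (conv_false (Q := fun j => mt (g' j) (g (j + 1)))
    (fun j hj => by
      have hj' : nz (Nat.land (gmk (cw g') j.val) (gmk (cw g) (nx j.val))) = true := hj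
      rw [nx_val, gmk_eq, gmk_eq] at hj'
      exact (mk_land _ _).1 hj') n3))
  have h5 := msr_spec (D := fun i => cdg (m (Fin.ofNat 6 i))) (fun i => cdg_lt _)
    (fun i hi => by
      obtain ⟨i, rfl⟩ : ∃ k : Fin 6, k.val = i := ⟨⟨i, hi⟩, rfl⟩
      show M.testBit (4 * i.val + cdg (m (Fin.ofNat 6 i.val))) = true
      rw [ofNat_val]
      exact hM i) 6 le_rfl 0 0 h4 (accC_63 hV hok hwok hok' hcov)
  have e0 : accM (fun i => cdg (m (Fin.ofNat 6 i))) 6 0 = cc m := rfl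
  rw [e0] at h5
  cases hb : band (Nat.beq (cw g') (cw g)) (Nat.beq (cc m) 0) with
  | true =>
    obtain ⟨q1, q2⟩ := band_eq.1 hb
    exact Or.inl ⟨cw_inj (Nat.eq_of_beq_eq_true q1), cc_eq_zero (Nat.eq_of_beq_eq_true q2)⟩
  | false =>
    rw [hb] at h5
    exact Or.inr (inE_spec h5)

theorem inv_m0 (hV : ∀ i : Fin 6, d32 V i.val = H728.wc (s.2 i)) (hok : OkSt s)
    (hwok : wok s.2 m) (hok' : OkSt (g', mvW s.2 m)) : Inv (m0 V) m := by
  have hb : ∀ i : Fin 6, (vmk (d32 V i.val)).testBit (cdg (m i)) = true := by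
    intro i
    rw [hV]
    exact vmk_bit (s.2 i).1 ⟨(s.2 i).2, by have := hok.1 i; omega⟩ (m i).1 (m i).2
      (hwok i) (hok'.1 i)
  have e : m0 V = (vmk (d32 V 0) <<< 0) ||| ((vmk (d32 V 1) <<< 4) ||| ((vmk (d32 V 2) <<< 8) |||
      ((vmk (d32 V 3) <<< 12) ||| ((vmk (d32 V 4) <<< 16) ||| (vmk (d32 V 5) <<< 20))))) := rfl
  intro i
  rw [e]
  simp only [Nat.testBit_or, Nat.testBit_shiftLeft]
  have h0 := hb 0
  have h1 := hb 1
  have h2 := hb 2
  have h3 := hb 3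
  have h4 := hb 4
  have h5 := hb 5
  fin_cases i
  · simp only [Fin.zero_eta, Fin.val_zero] at *
    simp_all
  · have : 4 * 1 + cdg (m 1) - 4 = cdg (m 1) := by omega
    simp_all
  · have : 4 * 2 + cdg (m 2) - 8 = cdg (m 2) := by omega
    simp_all
  · have : 4 * 3 + cdg (m 3) - 12 = cdg (m 3) := by omega
    simp_all
  · have : 4 * 4 + cdg (m 4) - 16 = cdg (m 4) := by omega
    simp_all
  · have : 4 * 5 + cdg (m 5) - 20 = cdg (m 5) := by omega
    simp_all

/-- **soundness of the edge search** -/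
theorem edgeC_of {C : ℕ → ℕ × ℕ} {E : ℕ → List Grp} {i : ℕ}
    (h : edg (C i).1 (C i).2 (E i) = true) : EdgeC (fun a b => ¬ NsC a b) C E i := by
  intro s m g' hg hv hok hwok hok' hcov hns
  have hn : NsC s.1 g' := not_not.1 hns
  rw [← hg, ← hv] at h
  have hV : ∀ i : Fin 6, d32 (cv s.2) i.val = H728.wc (s.2 i) := fun i => by
    rw [d32_eq, dg_cv hok.1]
  unfold edg at h
  rw [force_eq] at h
  have i0 := inv_m0 (m := m) hV hok hwok hok'
  have z0 : ∀ b, bt 0 b = false := fun b => by rw [bt_eq]; simp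
  have zl : ∀ x, nz (Nat.land x 0) = true → False := fun x hx => by
    rw [nz_iff] at hx
    exact hx (Nat.and_zero x)
  -- the facts for neighbouring slots
  have hb : ∀ (j k : Fin 6), k = j + 1 → bt (mk (g' k)) (g' j).1.val = false ∧
      bt (mk (g' k)) (g' j).2.val = false := by
    rintro j k rfl
    obtain ⟨-, -, -, b1, b2, b3, b4⟩ := hok'.2 j
    exact ⟨mk_bit _ _ b1 b2, mk_bit _ _ b3 b4⟩
  have hs : ∀ (j k : Fin 6), k = j + 1 → k.val = j.val + 1 →
      ¬ (nz (Nat.land (gmk (cw s.1) j.val) (mk (g' k))) = true ∧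
        nz (Nat.land (mk (g' j)) (gmk (cw s.1) (j.val + 1))) = true) := by
    rintro j k hk hk' ⟨x1, x2⟩
    rw [← hk', gmk_eq, hk] at x2
    rw [gmk_eq, hk] at x1
    exact hn.1 j ⟨(mk_land _ _).1 x1, (mk_land _ _).1 x2⟩
  obtain ⟨M5, i5, h5⟩ := stp_spec (5 : Fin 6) hV hok hwok hok' i0 (z0 _) (z0 _)
    (fun x => zl _ x.1) h
  obtain ⟨M4, i4, h4⟩ := stp_spec (4 : Fin 6) hV hok hwok hok' i5 (hb 4 5 (by decide)).1
    (hb 4 5 (by decide)).2 (hs 4 5 (by decide) (by decide)) h5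
  obtain ⟨M3, i3, h3⟩ := stp_spec (3 : Fin 6) hV hok hwok hok' i4 (hb 3 4 (by decide)).1
    (hb 3 4 (by decide)).2 (hs 3 4 (by decide) (by decide)) h4
  obtain ⟨M2, i2, h2⟩ := stp_spec (2 : Fin 6) hV hok hwok hok' i3 (hb 2 3 (by decide)).1
    (hb 2 3 (by decide)).2 (hs 2 3 (by decide) (by decide)) h3
  obtain ⟨M1, i1, h1⟩ := stp_spec (1 : Fin 6) hV hok hwok hok' i2 (hb 1 2 (by decide)).1
    (hb 1 2 (by decide)).2 (hs 1 2 (by decide) (by decide)) h2
  obtain ⟨N0, j0, h0⟩ := stp_spec (0 : Fin 6) hV hok hwok hok' i1 (hb 0 1 (by decide)).1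
    (hb 0 1 (by decide)).2 (hs 0 1 (by decide) (by decide)) h1
  have ew : (g' 0).1.val + 8 * ((g' 0).2.val + 8 * ((g' 1).1.val + 8 * ((g' 1).2.val +
      8 * ((g' 2).1.val + 8 * ((g' 2).2.val + 8 * ((g' 3).1.val + 8 * ((g' 3).2.val +
      8 * ((g' 4).1.val + 8 * ((g' 4).2.val + 8 * ((g' 5).1.val + 8 * ((g' 5).2.val +
      8 * 0))))))))))) = cw g' := by
    have e0 : ls g' 0 = (g' 0).1.val := ls_even g' 0
    have e1 : ls g' 1 = (g' 0).2.val := ls_odd g' 0
    have e2 : ls g' 2 = (g' 1).1.val := ls_even g' 1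
    have e3 : ls g' 3 = (g' 1).2.val := ls_odd g' 1
    have e4 : ls g' 4 = (g' 2).1.val := ls_even g' 2
    have e5 : ls g' 5 = (g' 2).2.val := ls_odd g' 2
    have e6 : ls g' 6 = (g' 3).1.val := ls_even g' 3
    have e7 : ls g' 7 = (g' 3).2.val := ls_odd g' 3
    have e8 : ls g' 8 = (g' 4).1.val := ls_even g' 4
    have e9 : ls g' 9 = (g' 4).2.val := ls_odd g' 4
    have e10 : ls g' 10 = (g' 5).1.val := ls_even g' 5
    have e11 : ls g' 11 = (g' 5).2.val := ls_odd g' 5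
    show _ = G.cd 8 (l12.map (ls g'))
    simp only [G.cd, l12, List.map, e0, e1, e2, e3, e4, e5, e6, e7, e8, e9, e10, e11]
  rw [ew] at h0
  exact leaf_spec hV hok hwok hok' hcov j0 hn h0

end Vale.Agent.P032.H453.Ed
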